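import Crest.Agent.Lib.QEnt.Basic
import Crest.Prelude.Def_Bosonic

/-! # Row 331, block CLOSE: entropy lower bound from approximate eigenvectors; thermal sums -/

set_option autoImplicit false
open Matrix Filter Topology Crest.Agent.Lib.QEnt Crest.Quantum Crest.MathPhysics.Bosonic
open scoped ComplexOrder

namespace Crest.Agent.R331

theorem cl_unif (φ : ℝ → ℝ) (hφ : Continuous φ) {a : ℝ} (ha : 0 < a) :
    ∃ C : ℝ, 0 ≤ C ∧ ∀ x ∈ Set.Icc (0 : ℝ) 2, ∀ y ∈ Set.Icc (0 : ℝ) 2, φ y - a - C * (x - y) ^ 2 ≤ φ x := by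
  obtain ⟨δ, hδ, h⟩ := Metric.uniformContinuousOn_iff.1
    ((isCompact_Icc (a := (0 : ℝ)) (b := 2)).uniformContinuousOn_of_continuous hφ.continuousOn) a ha
  obtain ⟨R, hR⟩ := (isCompact_Icc (a := (0 : ℝ)) (b := 2)).exists_bound_of_continuousOn hφ.continuousOn
  have hR0 : 0 ≤ R := (norm_nonneg _).trans (hR 0 (by simp))
  refine ⟨2 * R / δ ^ 2, by positivity, fun x hx y hy => ?_⟩
  by_cases hd : dist x y < δ
  · have h1 := abs_lt.1 (h x hx y hy hd)
    have : 0 ≤ 2 * R / δ ^ 2 * (x - y) ^ 2 := by positivity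
    linarith
  · have h1 : δ ^ 2 ≤ (x - y) ^ 2 := by
      rw [← sq_abs (x - y)]
      exact pow_le_pow_left₀ hδ.le (not_lt.1 hd) 2
    have h2 : 2 * R / δ ^ 2 * δ ^ 2 ≤ 2 * R / δ ^ 2 * (x - y) ^ 2 := by gcongr
    rw [div_mul_cancel₀ _ (by positivity)] at h2
    linarith [abs_le.1 (hR x hx), abs_le.1 (hR y hy)]

theorem cl_col {ι : Type} [Fintype ι] [DecidableEq ι] {σ U : Matrix ι ι ℂ} {l : ι → ℝ} (h : IsDiag σ U l) (k : ι)
    (y : ℝ) : ∑ i, Complex.normSq (U k i) * (l i - y) ^ 2 = ∑ m, ‖σ m k - if m = k then (y : ℂ) else 0‖ ^ 2 := by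
  have h1 := h.add_smul_one (-y)
  set A := ((-y : ℝ) : ℂ) • (1 : Matrix ι ι ℂ) + σ with hA
  have h2 : IsDiag (Aᴴ * A) U fun i => (l i - y) ^ 2 := by
    refine ⟨h.uni, ?_⟩
    rw [h1.isHermitian.eq, h1.eq]
    simp only [Matrix.mul_assoc]
    rw [← Matrix.mul_assoc Uᴴ U, h.uni, Matrix.one_mul, ← Matrix.mul_assoc (diagonal _), diagonal_mul_diagonal]
    congr 3
    ext i
    push_cast
    ring
  have h3 := h2.dg_eq 1 k
  simp only [dg, conjTranspose_one, Matrix.one_mul, Matrix.mul_one, conjTranspose_apply, Complex.star_def,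
    Complex.normSq_conj] at h3
  rw [← h3, Matrix.mul_apply, Complex.re_sum]
  refine Finset.sum_congr rfl fun m _ => ?_
  rw [conjTranspose_apply, Complex.star_def, Complex.conj_mul', ← Complex.ofReal_pow, Complex.ofReal_re]
  congr 2
  simp [hA, one_apply, sub_eq_neg_add]

/-- entropy lower bound from approximate eigenvectors -/
theorem cl_ent {a : ℝ} (ha : 0 < a) : ∃ C : ℝ, 0 ≤ C ∧ ∀ (ι : Type) [Fintype ι] [DecidableEq ι] (σ : Matrix ι ι ℂ),
    σ.PosSemidef → σ.trace.re ≤ 2 → ∀ (B : Finset ι) (y : ι → ℝ), (∀ k, y k ∈ Set.Icc (0 : ℝ) 2) →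
      ∑ k ∈ B, (y k * (Real.log 2 - Real.log (y k)) - a - C * ∑ m, ‖σ m k - if m = k then (y k : ℂ) else 0‖ ^ 2) ≤
        vnEntropy σ + Real.log 2 * σ.trace.re := by
  obtain ⟨C, hC, h⟩ := cl_unif (fun x => x * Real.log 2 - x * Real.log x)
    ((continuous_id.mul continuous_const).sub Real.continuous_mul_log) ha
  refine ⟨C, hC, fun ι _ _ σ hσ htr B y hy => ?_⟩
  obtain ⟨U, l, hd⟩ := exists_isDiag hσ.isHermitian
  have h0 := hd.nonneg hσ
  have h2 : ∀ i, l i ≤ 2 := fun i =>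
    (Finset.single_le_sum (fun i _ => h0 i) (Finset.mem_univ i)).trans (hd.trace_re ▸ htr)
  have h3 : ∀ i, 0 ≤ l i * Real.log 2 - l i * Real.log (l i) := fun i => by
    rcases (h0 i).eq_or_lt with h | h
    · simp [← h]
    · nlinarith [Real.log_le_log h (h2 i)]
  have h4 : vnEntropy σ + Real.log 2 * σ.trace.re =
      ∑ k, ∑ i, Complex.normSq (U k i) * (l i * Real.log 2 - l i * Real.log (l i)) := by
    rw [Finset.sum_comm]
    simp only [← Finset.sum_mul, sum_normSq_col hd.uni, one_mul]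
    rw [vnEntropy_eq hσ.isHermitian, hd.N, hd.trace_re, Finset.sum_sub_distrib, ← Finset.sum_mul]
    ring
  rw [h4]
  refine le_trans (Finset.sum_le_sum fun k _ => ?_) (Finset.sum_le_sum_of_subset_of_nonneg (Finset.subset_univ B)
    fun k _ _ => Finset.sum_nonneg fun i _ => mul_nonneg (Complex.normSq_nonneg _) (h3 i))
  refine le_trans (le_of_eq ?_) (Finset.sum_le_sum fun i _ =>
    mul_le_mul_of_nonneg_left (h (l i) ⟨h0 i, h2 i⟩ (y k) (hy k)) (Complex.normSq_nonneg (U k i)))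
  rw [← cl_col hd]
  simp only [mul_sub, Finset.sum_sub_distrib, ← Finset.sum_mul, sum_normSq_row hd.uni, one_mul, Finset.mul_sum,
    mul_left_comm C]

/-- the box of occupation tuples -/
def clBox (n M : ℕ) : Finset (Fin n → ℕ) := Fintype.piFinset fun _ => Finset.range (M + 1)

theorem cl_Z (n : ℕ) {t : ℝ} (ht : 0 < t) :
    Tendsto (fun M => ∑ k ∈ clBox n M, (1 + t)⁻¹ ^ n * (t / (t + 1)) ^ (∑ j, k j)) atTop (𝓝 1) ∧
    Tendsto (fun M => ∑ k ∈ clBox n M, (1 + t)⁻¹ ^ n * (t / (t + 1)) ^ (∑ j, k j) * (∑ j, k j : ℕ)) atTop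
      (𝓝 (n * t)) := by
  have hq0 : 0 ≤ t / (t + 1) := by positivity
  have hq : t / (t + 1) < 1 := by rw [div_lt_one (by positivity)]; linarith
  have h1 : Tendsto (fun M => ∑ i ∈ Finset.range (M + 1), (1 + t)⁻¹ * (t / (t + 1)) ^ i) atTop (𝓝 1) := by
    have := ((hasSum_geometric_of_lt_one hq0 hq).mul_left (1 + t)⁻¹).tendsto_sum_nat.comp (tendsto_add_atTop_nat 1)
    rwa [show (1 + t)⁻¹ * (1 - t / (t + 1))⁻¹ = 1 by field_simp; ring] at this
  have h2 : Tendsto (fun M => ∑ i ∈ Finset.range (M + 1), (1 + t)⁻¹ * (t / (t + 1)) ^ i * i) atTop (𝓝 t) := by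
    have := ((hasSum_coe_mul_geometric_of_norm_lt_one (r := t / (t + 1)) (by rwa [Real.norm_of_nonneg hq0])).mul_left
      (1 + t)⁻¹).tendsto_sum_nat.comp (tendsto_add_atTop_nat 1)
    rw [show (1 + t)⁻¹ * (t / (t + 1) / (1 - t / (t + 1)) ^ 2) = t by field_simp; ring] at this
    exact this.congr fun M => Finset.sum_congr rfl fun i _ => by ring
  have e : ∀ k : Fin n → ℕ, (1 + t)⁻¹ ^ n * (t / (t + 1)) ^ (∑ j, k j) = ∏ j, (1 + t)⁻¹ * (t / (t + 1)) ^ k j := fun k => by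
    rw [Finset.prod_mul_distrib, Finset.prod_pow_eq_pow_sum]
    simp
  simp only [e]
  constructor
  · have := tendsto_finsetProd (Finset.univ : Finset (Fin n)) fun _ _ => h1
    rw [Finset.prod_const_one] at this
    exact this.congr fun M => Finset.prod_univ_sum _ _
  · have := tendsto_finsetSum (Finset.univ : Finset (Fin n)) fun j _ =>
      tendsto_finsetProd (Finset.univ : Finset (Fin n)) (a := fun j' => if j' = j then t else 1)
        (f := fun j' M => ∑ i ∈ Finset.range (M + 1), (1 + t)⁻¹ * (t / (t + 1)) ^ i * if j' = j then (i : ℝ) else 1)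
        fun j' _ => by split_ifs; exacts [h2, by simpa using h1]
    simp only [Finset.prod_ite_eq', Finset.mem_univ, if_true, Finset.sum_const, Finset.card_univ, Fintype.card_fin,
      nsmul_eq_mul] at this
    refine this.congr fun M => ?_
    simp only [Finset.prod_univ_sum, Nat.cast_sum, Finset.mul_sum]
    rw [Finset.sum_comm]
    refine Finset.sum_congr rfl fun k _ => Finset.sum_congr rfl fun j _ => ?_
    rw [Finset.prod_mul_distrib, Finset.prod_ite_eq' Finset.univ j fun j' => (k j' : ℝ)]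
    simp

theorem cl_sum {n M : ℕ} {ι : Type} [Fintype ι] {occ : ι → Fin n → ℕ} (hi : Function.Injective occ)
    (hs : ∀ k : Fin n → ℕ, (∀ j, k j ≤ M) → ∃ i, occ i = k) (F : (Fin n → ℕ) → ℝ) :
    ∑ i ∈ Finset.univ.filter (fun i => ∀ j, occ i j ≤ M), F (occ i) = ∑ k ∈ clBox n M, F k := by
  refine Finset.sum_nbij occ (fun i hi => ?_) hi.injOn (fun k hk => ?_) fun _ _ => rfl
  · simpa [clBox, Nat.lt_succ_iff] using hi
  · have hk' : ∀ j, k j ≤ M := by simpa [clBox, Nat.lt_succ_iff] using hk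
    obtain ⟨i, rfl⟩ := hs k hk'
    exact ⟨i, by simpa using hk', rfl⟩

end Crest.Agent.R331
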