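import Crest.Agent.R331.Close.A
import Crest.Agent.Lib.QEnt.Entropy

/-! # Row 331, block CLOSE: an approximately thermal state has almost thermal entropy -/

set_option autoImplicit false
open Matrix Filter Topology Crest.Agent.Lib.QEnt Crest.Quantum Crest.MathPhysics.Bosonic
open scoped ComplexOrder

namespace Crest.Agent.R331

/-- the entries of `t σ c_j - (t+1) c_j σ` are at most `θ` -/
structure ClRes {n : ℕ} {ι : Type} (occ : ι → Fin n → ℕ) (σ : Matrix ι ι ℂ) (t θ : ℝ) : Prop where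
  z : ∀ j k k' l, occ k' = occ k + Pi.single j 1 → occ l j = 0 →
    ‖(((t + 1) * Real.sqrt (occ k j + 1) : ℝ) : ℂ) * σ k' l‖ ≤ θ
  s : ∀ j k k' l l', occ k' = occ k + Pi.single j 1 → occ l' = occ l + Pi.single j 1 →
    ‖((t * Real.sqrt (occ l j + 1) : ℝ) : ℂ) * σ k l - (((t + 1) * Real.sqrt (occ k j + 1) : ℝ) : ℂ) * σ k' l'‖ ≤ θ

theorem cl_pred {n M : ℕ} {ι : Type} {occ : ι → Fin n → ℕ} (hs : ∀ k : Fin n → ℕ, (∀ j, k j ≤ M) → ∃ i, occ i = k)
    {k : ι} (hk : ∀ j, occ k j ≤ M) {j : Fin n} (h : occ k j ≠ 0) :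
    ∃ k₀, occ k = occ k₀ + Pi.single j 1 ∧ ∀ j, occ k₀ j ≤ M := by
  obtain ⟨k₀, h0⟩ := hs (occ k - Pi.single j 1) fun j' => (Nat.sub_le _ _).trans (hk j')
  refine ⟨k₀, funext fun j' => ?_, fun j' => h0 ▸ (Nat.sub_le _ _).trans (hk j')⟩
  rw [h0]
  by_cases hj : j' = j
  · subst hj
    simp only [Pi.add_apply, Pi.sub_apply, Pi.single_eq_same]
    omega
  · simp [hj]

theorem cl_entry {n M : ℕ} {ι : Type} [DecidableEq ι] {occ : ι → Fin n → ℕ} (hi : Function.Injective occ)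
    (hs : ∀ k : Fin n → ℕ, (∀ j, k j ≤ M) → ∃ i, occ i = k) {σ : Matrix ι ι ℂ} (hσ : σ.IsHermitian) {t θ : ℝ}
    (ht : 0 < t) (hθ : 0 ≤ θ) (h : ClRes occ σ t θ) {o : ι} (ho : occ o = 0) (N : ℕ) :
    ∀ k l, (∀ j, occ k j ≤ M) → (∀ j, occ l j ≤ M) → ∑ j, occ k j = N →
      ‖σ k l - if k = l then (((t / (t + 1)) ^ N : ℝ) : ℂ) * σ o o else 0‖ ≤ (M + 2) ^ N * θ := by
  have hz : ∀ j k l, (∀ j, occ k j ≤ M) → occ k j ≠ 0 → occ l j = 0 → ‖σ k l‖ ≤ θ := fun j k l hk h1 h2 => by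
    obtain ⟨k₀, h3, -⟩ := cl_pred hs hk h1
    have h4 := h.z j k₀ k l h3 h2
    have h5 : 1 ≤ Real.sqrt (occ k₀ j + 1) := Real.one_le_sqrt.2 (by linarith [(occ k₀ j).cast_nonneg (α := ℝ)])
    rw [norm_mul, Complex.norm_real, Real.norm_of_nonneg (by positivity)] at h4
    exact (le_mul_of_one_le_left (norm_nonneg _) (by nlinarith)).trans h4
  induction N with
  | zero =>
    intro k l hk hl h0
    have h1 : k = o := hi (ho ▸ funext fun j => (Finset.sum_eq_zero_iff.1 h0) j (Finset.mem_univ j))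
    subst h1
    split_ifs with h2
    · simp [← h2, hθ]
    · obtain ⟨j, hj⟩ := Function.ne_iff.1 fun h3 : occ l = occ k => h2 (hi h3).symm
      rw [sub_zero, pow_zero, one_mul, ← hσ.apply, norm_star]
      exact hz j l k hl (by simpa [ho] using hj) (by simp [ho])
  | succ N ih =>
    intro k l hk hl h0
    obtain ⟨j, -, hj⟩ := Finset.exists_ne_zero_of_sum_ne_zero (h0.trans_ne N.succ_ne_zero)
    have hM : (1 : ℝ) ≤ (M + 2) ^ N := one_le_pow₀ (by linarith [M.cast_nonneg (α := ℝ)])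
    have hM0 := M.cast_nonneg (α := ℝ)
    by_cases hl0 : occ l j = 0
    · rw [if_neg fun h1 => hj (by rw [h1, hl0]), sub_zero]
      refine (hz j k l hk hj hl0).trans (le_mul_of_one_le_left hθ ?_)
      rw [pow_succ]
      nlinarith
    obtain ⟨k₀, h1, h2⟩ := cl_pred hs hk hj
    obtain ⟨l₀, h3, h4⟩ := cl_pred hs hl hl0
    have h5 := ih k₀ l₀ h2 h4 (by simpa [h1, Finset.sum_add_distrib] using h0)
    have h6 := h.s j k₀ k l₀ l h1 h3
    have h7 : 1 ≤ Real.sqrt (occ k₀ j + 1) := Real.one_le_sqrt.2 (by linarith [(occ k₀ j).cast_nonneg (α := ℝ)])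
    have h8 : Real.sqrt (occ l₀ j + 1) ≤ M + 1 := by
      rw [Real.sqrt_le_left (by positivity)]
      have : (occ l₀ j : ℝ) ≤ M := by exact_mod_cast h4 j
      nlinarith
    have h9 : k = l ↔ k₀ = l₀ := by rw [← hi.eq_iff, h1, h3, add_left_inj, hi.eq_iff]
    have e : (((t + 1) * Real.sqrt (occ k₀ j + 1) : ℝ) : ℂ) *
        (σ k l - if k = l then (((t / (t + 1)) ^ (N + 1) : ℝ) : ℂ) * σ o o else 0) =
        ((t * Real.sqrt (occ l₀ j + 1) : ℝ) : ℂ) *
          (σ k₀ l₀ - if k₀ = l₀ then (((t / (t + 1)) ^ N : ℝ) : ℂ) * σ o o else 0) -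
        (((t * Real.sqrt (occ l₀ j + 1) : ℝ) : ℂ) * σ k₀ l₀ - (((t + 1) * Real.sqrt (occ k₀ j + 1) : ℝ) : ℂ) * σ k l) := by
      by_cases h10 : k₀ = l₀
      · have : ((t : ℂ) + 1) ≠ 0 := by exact_mod_cast (by positivity : t + 1 ≠ 0)
        rw [if_pos h10, if_pos (h9.2 h10), h10, pow_succ]
        push_cast
        generalize ((t : ℂ) / (t + 1)) ^ N = x
        field_simp
        ring
      · rw [if_neg h10, if_neg (mt h9.1 h10)]
        ring
    have h11 := (congrArg norm e).trans_le (norm_sub_le _ _)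
    rw [norm_mul, norm_mul, Complex.norm_real, Complex.norm_real, Real.norm_of_nonneg (by positivity),
      Real.norm_of_nonneg (by positivity)] at h11
    have h12 := mul_le_mul (mul_le_mul_of_nonneg_left h8 ht.le) h5 (norm_nonneg _) (by positivity)
    have h13 := mul_le_mul_of_nonneg_right (mul_le_mul_of_nonneg_left h7 (by positivity : 0 ≤ t + 1)) (norm_nonneg
      (σ k l - if k = l then (((t / (t + 1)) ^ (N + 1) : ℝ) : ℂ) * σ o o else 0))
    have h14 : θ ≤ (M + 2) ^ N * θ := le_mul_of_one_le_left hθ hM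
    refine le_of_mul_le_mul_left ?_ (by positivity : 0 < t + 1)
    rw [pow_succ (M + 2 : ℝ)]
    nlinarith [mul_nonneg hM0 (hθ.trans h14), mul_nonneg ht.le (hθ.trans h14)]

theorem cl_psd {ι : Type} [Fintype ι] [DecidableEq ι] {σ : Matrix ι ι ℂ} (hσ : σ.PosSemidef) (k l : ι) :
    ‖σ k l‖ ^ 2 ≤ (σ k k).re * (σ l l).re := by
  obtain ⟨v, rfl⟩ := exists_sqrt hσ
  have e : ∀ k, ((v * vᴴ) k k).re = ∑ i, ‖v k i‖ ^ 2 := fun k => by
    simp only [Matrix.mul_apply, conjTranspose_apply, Complex.star_def, Complex.mul_conj', Complex.re_sum,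
      ← Complex.ofReal_pow, Complex.ofReal_re]
  rw [e, e]
  refine le_trans (pow_le_pow_left₀ (norm_nonneg _) ((norm_sum_le _ _).trans_eq ?_) 2)
    (Finset.sum_mul_sq_le_sq_mul_sq _ _ _)
  simp

/-- the columns of low levels are close to thermal columns -/
theorem cl_cols (n : ℕ) {t : ℝ} (ht : 0 < t) (E₀ : ℝ) {ζ : ℝ} (hζ : 0 < ζ) : ∀ᶠ M : ℕ in atTop, ∃ θ : ℝ, 0 < θ ∧ θ ≤ ζ ∧
    ∀ (ι : Type) [Fintype ι] [DecidableEq ι] (occ : ι → Fin n → ℕ) (σ : Matrix ι ι ℂ), Function.Injective occ →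
      (∀ k : Fin n → ℕ, (∀ j, k j ≤ M) → ∃ i, occ i = k) → σ.PosSemidef → |σ.trace.re - 1| ≤ θ →
      ∑ i, ((∑ j, occ i j : ℕ) : ℝ) * (σ i i).re ≤ E₀ → ClRes occ σ t θ → ∀ k, (∀ j, occ k j ≤ M) →
      ∑ m, ‖σ m k - if m = k then (((1 + t)⁻¹ ^ n * (t / (t + 1)) ^ (∑ j, occ k j) : ℝ) : ℂ) else 0‖ ^ 2 ≤ ζ := by
  obtain ⟨s, hs0, hs1, hs⟩ : ∃ s : ℝ, 0 < s ∧ s ≤ 1 ∧ 40 * s ≤ ζ :=
    ⟨min 1 (ζ / 40), by positivity, min_le_left _ _, by linarith [min_le_right 1 (ζ / 40)]⟩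
  filter_upwards [Metric.tendsto_nhds.1 (cl_Z n ht).1 s hs0,
    (tendsto_const_div_atTop_nhds_zero_nat E₀).eventually (gt_mem_nhds hs0), eventually_gt_atTop 0] with M h1 h2 hM
  have hM' : (0 : ℝ) < M := by exact_mod_cast hM
  set C : ℝ := ((M : ℝ) + 2) ^ (n * M) with hC
  set D : ℝ := ((clBox n M).card : ℝ) with hD
  have hC1 : 1 ≤ C := one_le_pow₀ (by linarith)
  have hD0 : 0 ≤ D := Nat.cast_nonneg _
  have hθ : 0 < s / ((D + 1) * C) := by positivity
  have hθ1 : (D + 1) * (C * (s / ((D + 1) * C))) = s := by field_simp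
  generalize s / ((D + 1) * C) = θ at hθ hθ1
  have hθ2 : θ ≤ C * θ := le_mul_of_one_le_left hθ.le hC1
  have hθ3 : 0 ≤ D * (C * θ) := by positivity
  refine ⟨θ, hθ, by nlinarith, fun ι _ _ occ σ hi hsur hσ htr hE hres k hk => ?_⟩
  obtain ⟨o, ho⟩ := hsur 0 fun _ => Nat.zero_le _
  have hq0 : 0 ≤ t / (t + 1) := by positivity
  have hq : t / (t + 1) ≤ 1 := by rw [div_le_one (by positivity)]; linarith
  have h3 : ∀ k l, (∀ j, occ k j ≤ M) → (∀ j, occ l j ≤ M) →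
      ‖σ k l - if k = l then (((t / (t + 1)) ^ (∑ j, occ k j) : ℝ) : ℂ) * σ o o else 0‖ ≤ C * θ := fun k l hk hl =>
    (cl_entry hi hsur hσ.isHermitian ht hθ.le hres ho _ k l hk hl rfl).trans (mul_le_mul_of_nonneg_right
      (pow_le_pow_right₀ (by linarith) ((Finset.sum_le_sum fun j _ => hk j).trans_eq (by simp))) hθ.le)
  have hd : ∀ i, 0 ≤ (σ i i).re := fun i => (Complex.nonneg_iff.1 hσ.diag_nonneg).1
  set B := Finset.univ.filter fun i => ∀ j, occ i j ≤ M with hB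
  have hcard : (B.card : ℝ) = D := by simpa [hB, hD] using cl_sum hi hsur fun _ => 1
  have h4 : ∑ i ∈ Bᶜ, (σ i i).re ≤ s := by
    refine le_trans ?_ h2.le
    rw [le_div_iff₀ hM', Finset.sum_mul]
    refine le_trans (Finset.sum_le_sum fun i hi => ?_) ((Finset.sum_le_sum_of_subset_of_nonneg (Finset.subset_univ _)
      fun i _ _ => mul_nonneg (Nat.cast_nonneg _) (hd i)).trans hE)
    obtain ⟨j, hj⟩ : ∃ j, M < occ i j := by simpa [hB] using hi
    rw [mul_comm]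
    exact mul_le_mul_of_nonneg_right (Nat.cast_le.2 (hj.le.trans
      (Finset.single_le_sum (f := occ i) (fun _ _ => Nat.zero_le _) (Finset.mem_univ j)))) (hd i)
  have h5 : σ.trace.re = ∑ i ∈ B, (σ i i).re + ∑ i ∈ Bᶜ, (σ i i).re := by
    rw [Finset.sum_add_sum_compl, Matrix.trace, Complex.re_sum]
    rfl
  have h4' : 0 ≤ ∑ i ∈ Bᶜ, (σ i i).re := Finset.sum_nonneg fun i _ => hd i
  set Z := ∑ i ∈ B, (t / (t + 1)) ^ (∑ j, occ i j) with hZ
  have hZ1 : 1 ≤ Z := le_trans (by simp [ho]) (Finset.single_le_sum (f := fun i => (t / (t + 1)) ^ (∑ j, occ i j))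
    (fun _ _ => by positivity) (show o ∈ B by simp [hB, ho]))
  have h6 : |(1 + t)⁻¹ ^ n * Z - 1| ≤ s := by
    rw [hZ, Finset.mul_sum, cl_sum hi hsur fun k => (1 + t)⁻¹ ^ n * (t / (t + 1)) ^ (∑ j, k j)]
    exact h1.le
  have h7 : |∑ i ∈ B, (σ i i).re - (σ o o).re * Z| ≤ D * (C * θ) := by
    rw [hZ, Finset.mul_sum, ← Finset.sum_sub_distrib, ← hcard, ← nsmul_eq_mul]
    refine (Finset.abs_sum_le_sum_abs _ _).trans (Finset.sum_le_card_nsmul _ _ _ fun i hi => ?_)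
    have hi' : ∀ j, occ i j ≤ M := by simpa [hB] using hi
    refine le_trans (le_of_eq ?_) ((Complex.abs_re_le_norm _).trans (h3 i i hi' hi'))
    rw [if_pos rfl, Complex.sub_re, Complex.re_ofReal_mul, mul_comm]
  have h8 : |(σ o o).re - (1 + t)⁻¹ ^ n| ≤ 3 * s := by
    refine (le_mul_of_one_le_right (abs_nonneg _) hZ1).trans ?_
    rw [← abs_of_nonneg (zero_le_one.trans hZ1), ← abs_mul, abs_le]
    rw [abs_le] at h6 h7 htr
    constructor <;> nlinarith
  have h9 : σ o o = ((σ o o).re : ℂ) := Complex.ext rfl (Complex.nonneg_iff.1 hσ.diag_nonneg).2.symm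
  rw [← Finset.sum_add_sum_compl B]
  have h10 : ∑ m ∈ Bᶜ, ‖σ m k - if m = k then (((1 + t)⁻¹ ^ n * (t / (t + 1)) ^ (∑ j, occ k j) : ℝ) : ℂ) else 0‖ ^ 2 ≤
      s * 2 := by
    refine le_trans (Finset.sum_le_sum fun m hm => ?_) ((Finset.sum_mul _ _ _).symm.trans_le
      (mul_le_mul h4 (show (σ k k).re ≤ 2 from ?_) (hd k) hs0.le))
    · rw [if_neg fun h => Finset.mem_compl.1 hm (by simp [h, hB, hk]), sub_zero]
      exact cl_psd hσ m k
    · have := Finset.single_le_sum (f := fun i => (σ i i).re) (fun i _ => hd i) (show k ∈ B by simp [hB, hk])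
      rw [abs_le] at htr
      nlinarith
  have h11 : ∑ m ∈ B, ‖σ m k - if m = k then (((1 + t)⁻¹ ^ n * (t / (t + 1)) ^ (∑ j, occ k j) : ℝ) : ℂ) else 0‖ ≤
      4 * s := by
    refine le_trans (Finset.sum_le_sum (g := fun m => C * θ + if m = k then 3 * s else 0) fun m hm => ?_) ?_
    · have := h3 m k (by simpa [hB] using hm) hk
      split_ifs at this ⊢ with h
      · subst h
        refine (norm_sub_le_norm_sub_add_norm_sub _ _ _).trans (add_le_add this ?_)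
        rw [h9, ← Complex.ofReal_mul, ← Complex.ofReal_sub, Complex.norm_real, Real.norm_eq_abs, mul_comm, ← sub_mul,
          abs_mul, abs_of_nonneg (pow_nonneg hq0 _)]
        exact (mul_le_of_le_one_right (abs_nonneg _) (pow_le_one₀ hq0 hq)).trans h8
      · rwa [add_zero]
    · rw [Finset.sum_add_distrib, Finset.sum_const, nsmul_eq_mul, hcard, Finset.sum_ite_eq']
      split_ifs <;> nlinarith
  have h12 := (Finset.sum_sq_le_sq_sum_of_nonneg fun _ _ => norm_nonneg _).trans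
    (pow_le_pow_left₀ (Finset.sum_nonneg fun _ _ => norm_nonneg _) h11 2)
  nlinarith

theorem close_abs (n : ℕ) {t : ℝ} (ht : 0 < t) (E₀ : ℝ) {γ : ℝ} (hγ : 0 < γ) : ∃ (M : ℕ) (θ : ℝ), 0 < θ ∧
    ∀ (ι : Type) [Fintype ι] [DecidableEq ι] (occ : ι → Fin n → ℕ) (σ : Matrix ι ι ℂ), Function.Injective occ →
      (∀ k : Fin n → ℕ, (∀ j, k j ≤ M) → ∃ i, occ i = k) → σ.PosSemidef → |σ.trace.re - 1| ≤ θ →
      ∑ i, ((∑ j, occ i j : ℕ) : ℝ) * (σ i i).re ≤ E₀ → ClRes occ σ t θ → n * gBose t - γ ≤ vnEntropy σ := by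
  have hq0 : 0 < t / (t + 1) := by positivity
  have hq : t / (t + 1) ≤ 1 := by rw [div_le_one (by positivity)]; linarith
  have hp : (1 + t)⁻¹ ≤ 1 := inv_le_one_of_one_le₀ (by linarith)
  set y : (Fin n → ℕ) → ℝ := fun k => (1 + t)⁻¹ ^ n * (t / (t + 1)) ^ (∑ j, k j) with hy
  have h1 : Tendsto (fun M => ∑ k ∈ clBox n M, y k * (Real.log 2 - Real.log (y k))) atTop
      (𝓝 (n * gBose t + Real.log 2)) := by
    have := ((cl_Z n ht).1.mul_const (Real.log 2 + n * Real.log (t + 1))).sub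
      ((cl_Z n ht).2.mul_const (Real.log t - Real.log (t + 1)))
    rw [show 1 * (Real.log 2 + n * Real.log (t + 1)) - n * t * (Real.log t - Real.log (t + 1)) =
      n * gBose t + Real.log 2 by rw [gBose]; ring] at this
    refine this.congr fun M => ?_
    rw [Finset.sum_mul, Finset.sum_mul, ← Finset.sum_sub_distrib]
    refine Finset.sum_congr rfl fun k _ => ?_
    simp only [hy]
    rw [Real.log_mul (by positivity) (by positivity), Real.log_pow, Real.log_pow, Real.log_inv,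
      Real.log_div ht.ne' (by positivity), add_comm 1 t]
    ring
  obtain ⟨M₁, h2⟩ := (h1.eventually (lt_mem_nhds (show n * gBose t + Real.log 2 - γ / 4 < _ by linarith))).exists
  set D : ℝ := ((clBox n M₁).card : ℝ) with hD
  have hD0 : 0 ≤ D := Nat.cast_nonneg _
  obtain ⟨C, hC, h3⟩ := cl_ent (a := γ / 4 / (D + 1)) (by positivity)
  obtain ⟨ζ, hζ, hζ1, hζ2, hζ3⟩ : ∃ ζ : ℝ, 0 < ζ ∧ ζ ≤ 1 ∧ ζ ≤ γ / 4 ∧ D * (C * ζ) ≤ γ / 4 := by
    refine ⟨min 1 (γ / 4 / (D * C + 1)), by positivity, min_le_left _ _, (min_le_right _ _).trans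
      (div_le_self (by positivity) (le_add_of_nonneg_left (by positivity))), ?_⟩
    have h4 := (le_div_iff₀ (by positivity)).1 (min_le_right 1 (γ / 4 / (D * C + 1)))
    have : 0 < min 1 (γ / 4 / (D * C + 1)) := by positivity
    nlinarith
  obtain ⟨M, ⟨θ, hθ, hθζ, h4⟩, hM⟩ := ((cl_cols n ht E₀ hζ).and (eventually_ge_atTop M₁)).exists
  refine ⟨M, θ, hθ, fun ι _ _ occ σ hi hsur hσ htr hE hres => ?_⟩
  have hsur' : ∀ k : Fin n → ℕ, (∀ j, k j ≤ M₁) → ∃ i, occ i = k := fun k hk => hsur k fun j => (hk j).trans hM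
  rw [abs_le] at htr
  have h5 := h3 ι σ hσ (by linarith) (Finset.univ.filter fun i => ∀ j, occ i j ≤ M₁) (fun i => y (occ i)) fun i =>
    ⟨by positivity, (mul_le_one₀ (pow_le_one₀ (by positivity) hp) (by positivity) (pow_le_one₀ hq0.le hq)).trans
      one_le_two⟩
  have h6 := (Finset.sum_le_sum (f := fun i => y (occ i) * (Real.log 2 - Real.log (y (occ i))) -
    (γ / 4 / (D + 1) + C * ζ)) fun i hi' => by
      have := mul_le_mul_of_nonneg_left (h4 ι occ σ hi hsur hσ (abs_le.2 htr) hE hres i fun j =>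
        ((Finset.mem_filter.1 hi').2 j).trans hM) hC
      linarith).trans h5
  rw [cl_sum hi hsur' fun k => y k * (Real.log 2 - Real.log (y k)) - (γ / 4 / (D + 1) + C * ζ), Finset.sum_sub_distrib,
    Finset.sum_const, nsmul_eq_mul, ← hD, mul_add] at h6
  have h7 : D * (γ / 4 / (D + 1)) ≤ γ / 4 := by
    rw [← mul_div_assoc, div_le_iff₀ (by positivity)]
    nlinarith
  have h8 := Real.log_two_lt_d9
  have h9 := Real.log_two_gt_d9
  nlinarith

end Crest.Agent.R331
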