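import Crest.Agent.R331.Close.B
import Crest.Agent.R331.Defs

/-! # Row 331, block CLOSE on `Bl n L` -/

set_option autoImplicit false
open Matrix Filter Topology Crest.Agent.Lib.QEnt Crest.Quantum Crest.MathPhysics.Bosonic
open scoped ComplexOrder

namespace Crest.Agent.R331

theorem cl_ent_eq {α : Type*} [Fintype α] [DecidableEq α] {A : Matrix α α ℂ} (hA : A.IsHermitian) :
    ent A = vnEntropy A := by
  obtain ⟨U, l, h⟩ := exists_isDiag hA
  rw [vnEntropy_eq hA, h.N, ent, h.trf, ← Finset.sum_neg_distrib]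
  simp [Real.negMulLog]

theorem cl_small_entry {α : Type*} [Fintype α] [DecidableEq α] {σ c : Matrix α α ℂ} {t w : ℝ} (hσ : σ.PosSemidef)
    (htr : σ.trace.re ≤ 2) (hw : 0 ≤ w) (h : Small σ t c w) (k l : α) : ‖df σ t c k l‖ ≤ 2 * Real.sqrt w := by
  have h1 := h (Matrix.single k l 1)
  have hd : ∀ i, (σ i i).re ≤ 2 := fun i => le_trans (by
    rw [Matrix.trace, Complex.re_sum]
    exact Finset.single_le_sum (f := fun i => (σ i i).re) (fun i _ => (Complex.nonneg_iff.1 hσ.diag_nonneg).1)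
      (Finset.mem_univ i)) htr
  simp only [conjTranspose_single, star_one, single_mul_single_same, mul_one, trace_single_mul, trace_mul_single,
    smul_eq_mul, one_mul, MulOpposite.op_one, one_smul] at h1
  refine abs_le_of_sq_le_sq' ?_ (by positivity) |>.2
  rw [mul_pow, Real.sq_sqrt hw]
  nlinarith [hd k, hd l]

theorem cl_low_mul {n L : ℕ} (j : Fin n) (σ : Mt n L) {k k' : Bl n L} (h : k'.1 = k.1 + Pi.single j 1) (l : Bl n L) :
    (low n L j * σ) k l = ((Real.sqrt (k.1 j + 1) : ℝ) : ℂ) * σ k' l := by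
  rw [Matrix.mul_apply, Finset.sum_eq_single k']
  · simp [low, h]
  · intro m _ hm
    simp [low, show m.1 ≠ k.1 + Pi.single j 1 from fun h' => hm (Subtype.ext (h'.trans h.symm))]
  · simp

theorem cl_mul_low {n L : ℕ} (j : Fin n) (σ : Mt n L) (k : Bl n L) {l l' : Bl n L} (h : l'.1 = l.1 + Pi.single j 1) :
    (σ * low n L j) k l' = ((Real.sqrt (l.1 j + 1) : ℝ) : ℂ) * σ k l := by
  rw [Matrix.mul_apply, Finset.sum_eq_single l]
  · simp [low, h, mul_comm]
  · intro m _ hm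
    simp [low, h, show l.1 ≠ m.1 from fun h' => hm (Subtype.ext h'.symm)]
  · simp

theorem cl_mul_low0 {n L : ℕ} (j : Fin n) (σ : Mt n L) (k : Bl n L) {l : Bl n L} (h : l.1 j = 0) :
    (σ * low n L j) k l = 0 := by
  simp [Matrix.mul_apply, low, h]

theorem cl_res {n L : ℕ} {σ : Mt n L} {t θ : ℝ} (h : ∀ j k l, ‖df σ t (low n L j) k l‖ ≤ θ) :
    ClRes (fun k : Bl n L => k.1) σ t θ := by
  refine ⟨fun j k k' l h1 h2 => ?_, fun j k k' l l' h1 h2 => ?_⟩
  · have := h j k l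
    rw [df, Matrix.sub_apply, Matrix.smul_apply, Matrix.smul_apply, cl_low_mul j σ h1, cl_mul_low0 j σ k h2, smul_zero,
      zero_sub, norm_neg, smul_eq_mul, ← mul_assoc, ← Complex.ofReal_mul] at this
    exact this
  · have := h j k l'
    rw [df, Matrix.sub_apply, Matrix.smul_apply, Matrix.smul_apply, cl_low_mul j σ h1, cl_mul_low j σ k h2,
      smul_eq_mul, smul_eq_mul, ← mul_assoc, ← mul_assoc, ← Complex.ofReal_mul, ← Complex.ofReal_mul] at this
    exact this

/-- `tr σ c* c = E_j` -/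
theorem cl_num {n L : ℕ} (j : Fin n) : (low n L j)ᴴ * low n L j = diagonal fun k : Bl n L => ((k.1 j : ℝ) : ℂ) := by
  ext k l
  by_cases h : l.1 j = 0
  · rw [cl_mul_low0 j _ k h, diagonal_apply]
    split_ifs with h'
    · simp [h', h]
    · rfl
  · have h1 : l.1 = (l.1 - Pi.single j 1) + Pi.single j 1 := funext fun j' => by
      by_cases hj : j' = j
      · subst hj
        simp only [Pi.add_apply, Pi.sub_apply, Pi.single_eq_same]
        omega
      · simp [hj]
    let l₀ : Bl n L := ⟨l.1 - Pi.single j 1, le_trans (Finset.sum_le_sum fun j' _ => Nat.sub_le _ _) l.2⟩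
    have h2 : l.1 = l₀.1 + Pi.single j 1 := h1
    have h3 : (l.1 j : ℝ) = l₀.1 j + 1 := by rw [h2]; simp
    rw [cl_mul_low j _ k h2, conjTranspose_apply, low, of_apply, ← h2, diagonal_apply, ← h3]
    by_cases h' : k = l
    · rw [if_pos h', if_pos (congrArg _ h'), h', Complex.star_def, Complex.conj_ofReal, ← Complex.ofReal_mul,
        Real.mul_self_sqrt (by positivity)]
    · rw [if_neg h', if_neg fun h'' => h' (Subtype.ext h''), star_zero, mul_zero]

theorem cl_num' {n L : ℕ} (j : Fin n) : ∃ f : Bl n L → ℝ, (∀ k, f k ≤ k.1 j + 1) ∧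
    low n L j * (low n L j)ᴴ = diagonal fun k => ((f k : ℝ) : ℂ) := by
  classical
  refine ⟨fun k => if ∃ k' : Bl n L, k'.1 = k.1 + Pi.single j 1 then k.1 j + 1 else 0, fun k => ?_, ?_⟩
  · dsimp only
    split_ifs
    · rfl
    · positivity
  ext k l
  rw [diagonal_apply]
  by_cases h : ∃ k' : Bl n L, k'.1 = k.1 + Pi.single j 1
  · obtain ⟨k', h'⟩ := id h
    simp only [if_pos h]
    rw [cl_low_mul j _ h', conjTranspose_apply, low, of_apply, h']
    by_cases h1 : k = l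
    · rw [if_pos h1, if_pos (by rw [h1]), Complex.star_def, Complex.conj_ofReal, ← Complex.ofReal_mul, Pi.add_apply,
        Pi.single_eq_same, Nat.cast_add, Nat.cast_one, Real.mul_self_sqrt (by positivity)]
    · rw [if_neg h1, if_neg fun h2 => h1 (Subtype.ext (add_right_cancel h2)), star_zero, mul_zero]
  · simp only [if_neg h]
    rw [Matrix.mul_apply, Finset.sum_eq_zero fun m _ => by
      rw [low, of_apply, if_neg fun h2 => h ⟨m, h2⟩, zero_mul]]
    simp

theorem cl_energy {n L : ℕ} {σ : Mt n L} {t w E₀ : ℝ} (hσ : σ.PosSemidef) (ht : 0 ≤ t) (hw : 0 ≤ w) (hE : en σ ≤ E₀)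
    (h : ∀ j, Small σ t (low n L j) w) :
    en σ ≤ n * (t * σ.trace.re + Real.sqrt (w * (2 * E₀ + σ.trace.re))) := by
  have hd : ∀ i, 0 ≤ (σ i i).re := fun i => (Complex.nonneg_iff.1 hσ.diag_nonneg).1
  have e : ∀ f : Bl n L → ℝ, (σ * diagonal fun k => ((f k : ℝ) : ℂ)).trace.re = ∑ k, f k * (σ k k).re := fun f => by
    simp [Matrix.trace, Complex.re_sum, mul_comm]
  have e1 : en σ = ∑ j, ∑ k : Bl n L, (k.1 j : ℝ) * (σ k k).re := by
    rw [Finset.sum_comm]
    simp only [en, ev, tot, Nat.cast_sum, Finset.sum_mul]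
  have e2 : σ.trace.re = ∑ k, (σ k k).re := by rw [Matrix.trace, Complex.re_sum]; rfl
  rw [e1] at hE ⊢
  refine (Finset.sum_le_card_nsmul _ _ (t * σ.trace.re + Real.sqrt (w * (2 * E₀ + σ.trace.re))) fun j _ => ?_).trans_eq
    (by simp [mul_add])
  obtain ⟨f, hf, h1⟩ := cl_num' (L := L) j
  have h2 := h j (low n L j)
  have h3 : ∑ k, f k * (σ k k).re ≤ ∑ k : Bl n L, (k.1 j : ℝ) * (σ k k).re + σ.trace.re := by
    rw [e2, ← Finset.sum_add_distrib]
    exact Finset.sum_le_sum fun k _ => by nlinarith [hf k, hd k]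
  have h4 := (Finset.single_le_sum (f := fun j => ∑ k : Bl n L, (k.1 j : ℝ) * (σ k k).re)
    (fun j _ => Finset.sum_nonneg fun k _ => mul_nonneg (Nat.cast_nonneg _) (hd k)) (Finset.mem_univ j)).trans hE
  have h5 : ((low n L j)ᴴ * df σ t (low n L j)).trace.re =
      t * ∑ k, f k * (σ k k).re - (t + 1) * ∑ k : Bl n L, (k.1 j : ℝ) * (σ k k).re := by
    rw [df, Matrix.mul_sub, Matrix.mul_smul, Matrix.mul_smul, trace_sub, trace_smul, trace_smul, smul_eq_mul,
      smul_eq_mul, Complex.sub_re, Complex.re_ofReal_mul, Complex.re_ofReal_mul, trace_mul_comm, Matrix.mul_assoc, h1, e,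
      ← Matrix.mul_assoc, trace_mul_comm, cl_num, e]
  rw [cl_num, h1, e, e] at h2
  have h6 := (Complex.abs_re_le_norm _).trans (Real.le_sqrt_of_sq_le (h2.trans
    (mul_le_mul_of_nonneg_left (show _ ≤ 2 * E₀ + σ.trace.re by linarith) hw)))
  rw [h5, abs_le] at h6
  nlinarith [h6.1]

theorem close_bl (n : ℕ) {t : ℝ} (ht : 0 < t) (E₀ : ℝ) {γ : ℝ} (hγ : 0 < γ) : ∃ (L₀ : ℕ) (w : ℝ), 0 < w ∧
    ∀ L, L₀ ≤ L → ∀ σ : Mt n L, σ.PosSemidef → |σ.trace.re - 1| ≤ w → en σ ≤ E₀ →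
      (∀ j, Small σ t (low n L j) w) → n * gBose t - γ ≤ ent σ ∧ en σ ≤ n * t + γ := by
  obtain ⟨M, θ, hθ, h⟩ := close_abs n ht E₀ hγ
  have h1 : Tendsto (fun w : ℝ => n * (t * (1 + w) + Real.sqrt (w * (2 * E₀ + 2)))) (𝓝 0) (𝓝 (n * t)) :=
    Continuous.tendsto' (by fun_prop) _ _ (by simp)
  have h2 : Tendsto (fun w : ℝ => 2 * Real.sqrt w) (𝓝 0) (𝓝 0) := Continuous.tendsto' (by fun_prop) _ _ (by simp)
  obtain ⟨w, ⟨⟨⟨h3, h4⟩, h5⟩, h6⟩, hw⟩ := ((((((h1.eventually (gt_mem_nhds (lt_add_of_pos_right _ hγ))).and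
    (h2.eventually (gt_mem_nhds hθ))).and (gt_mem_nhds hθ)).and (gt_mem_nhds one_pos)).filter_mono
      nhdsWithin_le_nhds).and (self_mem_nhdsWithin (s := Set.Ioi (0 : ℝ)))).exists
  refine ⟨n * M, w, hw, fun L hL σ hσ htr hE hs => ⟨?_, ?_⟩⟩
  · rw [cl_ent_eq hσ.isHermitian]
    exact h _ (fun k : Bl n L => k.1) σ Subtype.val_injective
      (fun k hk => ⟨⟨k, ((Finset.sum_le_sum fun j _ => hk j).trans_eq (by simp)).trans hL⟩, rfl⟩) hσ (htr.trans h5.le) hE
      (cl_res fun j k l => (cl_small_entry hσ (by linarith [abs_le.1 htr]) (le_of_lt hw) (hs j) k l).trans h4.le)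
  · have := abs_le.1 htr
    have hw' : 0 < w := hw
    refine (cl_energy hσ ht.le hw'.le hE hs).trans (le_trans ?_ h3.le)
    gcongr <;> linarith

end Crest.Agent.R331
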